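import Vale.Agent.P207.N4.Spec

/-!
# P207, all dimensions, clock version, row P2: near pairs stay near

`ev_small` : for `(x, ξ)` near `(z, em z)` the orbits of `x` and of `hol ξ x` stay `δ`-close for all
positive times (continuity on a compact interval of time, `hol_asym` after it).
-/

set_option linter.unusedSectionVars false

open Set Filter Topology Metric
open scoped ContDiff

noncomputable section

namespace Vale.Agent.P207.N4.H734

open Vale.Agent.P207.N3

variable [Dim]

variable {Γ X B : Type} [Group Γ] [MetricSpace X] [ProperSpace X] [MulAction Γ X]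
  [IsIsometricSMul Γ X] [TopologicalSpace B] [CompactSpace B] [T2Space B] [MulAction Γ B]
  [ContinuousConstSMul Γ B] (L : Leaf Γ X B)

/-- the orbits of `x` and of `hol ξ x` are `δ`-close for all positive times -/
def HolSm (δ : ℝ) (x : X) (ξ : B) : Prop := ξ ≠ L.ep x ∧
  ∀ t : ℝ, 0 ≤ t → dist (L.φ t x) (L.φ t (L.hol ξ x)) ≤ δ

theorem ep_cont : Continuous L.ep := by
  have h : L.ep = fun x => L.em (L.flip x) := funext L.ep_flip
  rw [h]
  exact L.em_cont.comp L.flip_cont

theorem ep_smul (g : Γ) (x : X) : L.ep (g • x) = g • L.ep x := by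
  rw [L.ep_flip, L.ep_flip, L.flip_smul, L.em_smul]

theorem isOpen_ne_ep : IsOpen {p : X × B | p.2 ≠ L.ep p.1} := by
  have h : IsClosed {p : X × B | p.2 = L.ep p.1} :=
    isClosed_eq continuous_snd ((ep_cont L).comp continuous_fst)
  exact h.isOpen_compl

variable {L}

theorem holSm_smul {δ : ℝ} (g : Γ) (x : X) (ξ : B) (h : HolSm L δ (g • x) (g • ξ)) :
    HolSm L δ x ξ := by
  have h1 : ξ ≠ L.ep x := by
    intro h2
    refine h.1 ?_
    rw [ep_smul, h2]
  refine ⟨h1, fun t ht => ?_⟩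
  have h2 := h.2 t ht
  rwa [L.hol_smul g ξ x h1, L.φ_smul, L.φ_smul, dist_smul] at h2

variable (L)

/-- near the diagonal the orbits of `x` and of `hol ξ x` stay close for all positive times -/
theorem ev_small {δ : ℝ} (hδ : 0 < δ) (z : X) :
    ∀ᶠ p : X × B in 𝓝 (z, L.em z), HolSm L δ p.1 p.2 := by
  have hO := isOpen_ne_ep L
  have hz : (z, L.em z) ∈ {p : X × B | p.2 ≠ L.ep p.1} := L.em_ne_ep z
  obtain ⟨N, hN, hzN, hNO⟩ := exists_compact_subset hO hz
  have hK : IsCompact (Prod.swap '' N) := hN.image continuous_swap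
  obtain ⟨C, hC⟩ := L.hol_asym (Prod.swap '' N) hK (by
    rintro _ ⟨p, hp, rfl⟩
    exact hNO hp)
  have hχ := L.χ_pos
  obtain ⟨t₀, ht₀, ht₀'⟩ : ∃ t₀ : ℝ, 0 ≤ t₀ ∧ |C| * Real.exp (-L.χ * t₀) ≤ δ := by
    have h1 : Tendsto (fun t : ℝ => |C| * Real.exp (-L.χ * t)) atTop (𝓝 (|C| * 0)) := by
      refine Tendsto.const_mul _ (Real.tendsto_exp_atBot.comp ?_)
      exact tendsto_id.const_mul_atTop_of_neg (neg_neg_of_pos hχ)
    rw [mul_zero] at h1
    obtain ⟨t₀, h2, h3⟩ := ((h1.eventually (gt_mem_nhds hδ)).and (eventually_ge_atTop 0)).exists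
    exact ⟨t₀, h3, h2.le⟩
  have h1 : ∀ᶠ p : X × B in 𝓝 (z, L.em z), ∀ t ∈ Icc (0 : ℝ) t₀,
      dist (L.φ t p.1) (L.φ t (L.hol p.2 p.1)) < δ := by
    refine isCompact_Icc.eventually_forall_of_forall_eventually (x₀ := (z, L.em z))
      (P := fun (p : X × B) t => dist (L.φ t p.1) (L.φ t (L.hol p.2 p.1)) < δ) fun t _ => ?_
    have hh : ContinuousAt (fun p : B × X => L.hol p.1 p.2) (L.em z, z) := by
      refine L.hol_cont.continuousAt ?_
      have h2 : IsOpen {p : B × X | p.1 ≠ L.ep p.2} := by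
        have h : IsClosed {p : B × X | p.1 = L.ep p.2} :=
          isClosed_eq continuous_fst ((ep_cont L).comp continuous_snd)
        exact h.isOpen_compl
      exact h2.mem_nhds (L.em_ne_ep z)
    have hh' : ContinuousAt (fun p : (X × B) × ℝ => L.hol p.1.2 p.1.1) ((z, L.em z), t) := by
      have h2 : ContinuousAt (fun p : (X × B) × ℝ => (p.1.2, p.1.1)) ((z, L.em z), t) := by
        fun_prop
      exact ContinuousAt.comp (f := fun p : (X × B) × ℝ => (p.1.2, p.1.1))
        (g := fun p : B × X => L.hol p.1 p.2) hh h2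
    have h3 : ContinuousAt (fun p : (X × B) × ℝ => L.φ p.2 (L.hol p.1.2 p.1.1))
        ((z, L.em z), t) :=
      ContinuousAt.comp (f := fun p : (X × B) × ℝ => (p.2, L.hol p.1.2 p.1.1))
        (g := fun p : ℝ × X => L.φ p.1 p.2) L.φ_cont.continuousAt
        (continuousAt_snd.prodMk hh')
    have h4 : ContinuousAt (fun p : (X × B) × ℝ => L.φ p.2 p.1.1) ((z, L.em z), t) :=
      ContinuousAt.comp (f := fun p : (X × B) × ℝ => (p.2, p.1.1))
        (g := fun p : ℝ × X => L.φ p.1 p.2) L.φ_cont.continuousAt (by fun_prop)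
    have h5 : dist (L.φ t z) (L.φ t (L.hol (L.em z) z)) < δ := by
      rw [L.hol_self, dist_self]
      exact hδ
    exact (h4.dist h3).eventually (gt_mem_nhds h5)
  have h2 : N ∈ 𝓝 (z, L.em z) := mem_interior_iff_mem_nhds.1 hzN
  filter_upwards [h1, h2] with p hp hpN
  refine ⟨hNO hpN, fun t ht => ?_⟩
  rcases le_total t t₀ with h3 | h3
  · exact (hp t ⟨ht, h3⟩).le
  · have h4 := hC (Prod.swap p) ⟨p, hpN, rfl⟩ t ht
    refine h4.trans (le_trans ?_ ht₀')
    have h5 : Real.exp (-L.χ * t) ≤ Real.exp (-L.χ * t₀) := by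
      refine Real.exp_le_exp.2 ?_
      have := mul_le_mul_of_nonneg_left h3 hχ.le
      linarith
    exact mul_le_mul (le_abs_self C) h5 (Real.exp_pos _).le (abs_nonneg _)

end Vale.Agent.P207.N4.H734

end
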