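import Vale.Agent.P207.N4.H734.HolSm
import Vale.Agent.P207.N4.H790.ClockDef

/-!
# P207, all dimensions, clock version, row P2: the clock along two close orbits

`near_clk` : if two orbits are `δ`-close up to the time `t`, their clocks differ by at most `η t`.
`clk_hol` : the clocks of `x` and of `hol ξ x`, for `HolSm L δ x ξ`.
-/

set_option linter.unusedSectionVars false

open Set Filter Topology Metric MeasureTheory
open scoped ContDiff

noncomputable section

namespace Vale.Agent.P207.N4.H734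

open Vale.Agent.P207.N3

variable [Dim]

variable {Γ X B : Type} [Group Γ] [MetricSpace X] [ProperSpace X] [MulAction Γ X]
  [IsIsometricSMul Γ X] [TopologicalSpace B] [CompactSpace B] [T2Space B] [MulAction Γ B]
  [ContinuousConstSMul Γ B] (L : Leaf Γ X B)

include L in
/-- an invariant continuous function is uniformly continuous -/
theorem unif_of_inv {c : X → ℝ} (hc : Continuous c) (hs : ∀ (g : Γ) x, c (g • x) = c x) {η : ℝ}
    (hη : 0 < η) : ∃ δ > 0, ∀ x y, dist x y ≤ δ → |c x - c y| ≤ η := by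
  obtain ⟨K, hK, hK'⟩ := L.cocompact
  have hK1 : IsCompact (cthickening 1 K) := hK.cthickening
  have hu := hK1.uniformContinuousOn_of_continuous hc.continuousOn
  rw [Metric.uniformContinuousOn_iff] at hu
  obtain ⟨δ, hδ, h⟩ := hu η hη
  refine ⟨min (δ / 2) 1, lt_min (half_pos hδ) one_pos, fun x y hxy => ?_⟩
  obtain ⟨g, hg⟩ := hK' x
  have h1 : g • x ∈ cthickening 1 K := self_subset_cthickening K hg
  have h2 : dist (g • x) (g • y) = dist x y := dist_smul g x y
  have h3 : g • y ∈ cthickening 1 K := by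
    refine mem_cthickening_of_dist_le (g • y) (g • x) 1 K hg ?_
    rw [dist_comm, h2]
    exact hxy.trans (min_le_right _ _)
  have h4 : dist (g • x) (g • y) < δ := by
    rw [h2]
    have := hxy.trans (min_le_left _ _)
    linarith
  have h5 := h (g • x) h1 (g • y) h3 h4
  rw [hs, hs, Real.dist_eq] at h5
  exact h5.le

theorem orb_cont {c : X → ℝ} (hc : Continuous c) (x : X) : Continuous fun s => c (L.φ s x) :=
  hc.comp (L.φ_cont.comp (continuous_id.prodMk continuous_const))

/-- **the clocks along two close orbits** -/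
theorem near_clk {c : X → ℝ} (hc : Continuous c) (hs : ∀ (g : Γ) x, c (g • x) = c x) {η : ℝ}
    (hη : 0 < η) : ∃ δ > 0, ∀ x y t, 0 ≤ t → (∀ s, 0 ≤ s → s ≤ t →
      dist (L.φ s x) (L.φ s y) ≤ δ) → |Clock.sg L c t x - Clock.sg L c t y| ≤ η * t := by
  obtain ⟨δ, hδ, h⟩ := unif_of_inv L hc hs hη
  refine ⟨δ, hδ, fun x y t ht hd => ?_⟩
  have hi : ∀ z, IntervalIntegrable (fun s => c (L.φ s z)) volume 0 t := fun z =>
    (orb_cont L hc z).intervalIntegrable 0 t
  have h1 : Clock.sg L c t x - Clock.sg L c t y =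
      ∫ s in (0 : ℝ)..t, (c (L.φ s x) - c (L.φ s y)) := by
    rw [intervalIntegral.integral_sub (hi x) (hi y)]
    rfl
  rw [h1]
  have h2 := intervalIntegral.norm_integral_le_of_norm_le_const (a := (0 : ℝ)) (b := t) (C := η)
    (f := fun s => c (L.φ s x) - c (L.φ s y)) (fun s hs' => by
      rw [uIoc_of_le ht] at hs'
      rw [Real.norm_eq_abs]
      exact h _ _ (hd s hs'.1.le hs'.2))
  rw [Real.norm_eq_abs, sub_zero, abs_of_nonneg ht] at h2
  exact h2

/-- the bounds of the clock -/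
theorem clk_bounds {c : X → ℝ} (hc : Continuous c) {c₀ c₁ : ℝ} (h0 : ∀ x, c₀ ≤ c x)
    (h1 : ∀ x, c x ≤ c₁) {t : ℝ} (ht : 0 ≤ t) (x : X) :
    c₀ * t ≤ Clock.sg L c t x ∧ Clock.sg L c t x ≤ c₁ * t := by
  have hi := (orb_cont L hc x).intervalIntegrable (μ := volume) 0 t
  constructor
  · have h2 := intervalIntegral.integral_mono_on ht
      (intervalIntegrable_const (c := c₀) (μ := volume)) hi fun s _ => h0 (L.φ s x)
    rw [intervalIntegral.integral_const, sub_zero, smul_eq_mul, mul_comm] at h2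
    exact h2
  · have h2 := intervalIntegral.integral_mono_on ht hi
      (intervalIntegrable_const (c := c₁) (μ := volume)) fun s _ => h1 (L.φ s x)
    rw [intervalIntegral.integral_const, sub_zero, smul_eq_mul, mul_comm t c₁] at h2
    exact h2

/-- **the clocks of `x` and of `hol ξ x`** -/
theorem clk_hol {c : X → ℝ} (hc : Continuous c) (hs : ∀ (g : Γ) x, c (g • x) = c x) {c₀ : ℝ}
    (hc₀ : 0 < c₀) (h0 : ∀ x, c₀ ≤ c x) {c₁ : ℝ} (h1 : ∀ x, c x ≤ c₁) {η : ℝ}
    (hη : 0 < η) : ∃ δ > 0, ∀ x ξ, HolSm L δ x ξ → ∀ t, 0 ≤ t →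
      |Clock.sg L c t (L.hol ξ x) - Clock.sg L c t x| ≤ η * t ∧
      (1 - η) * Clock.sg L c t x ≤ Clock.sg L c t (L.hol ξ x) ∧
      Clock.sg L c t (L.hol ξ x) ≤ (1 + η) * Clock.sg L c t x := by
  have hη' : 0 < min η (η * c₀) := lt_min hη (mul_pos hη hc₀)
  obtain ⟨δ, hδ, h⟩ := near_clk L hc hs hη'
  refine ⟨δ, hδ, fun x ξ hx t ht => ?_⟩
  have h2 := h x (L.hol ξ x) t ht fun s hs' _ => hx.2 s hs'
  have h3 : min η (η * c₀) * t ≤ η * t := mul_le_mul_of_nonneg_right (min_le_left _ _) ht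
  have h4 : min η (η * c₀) * t ≤ η * c₀ * t := mul_le_mul_of_nonneg_right (min_le_right _ _) ht
  have h5 : η * c₀ * t ≤ η * Clock.sg L c t x := by
    rw [mul_assoc]
    exact mul_le_mul_of_nonneg_left (clk_bounds L hc h0 h1 ht x).1 hη.le
  refine ⟨?_, ?_, ?_⟩
  · rw [abs_sub_comm]
    exact h2.trans h3
  · have := (abs_le.1 h2).2
    linarith
  · have := (abs_le.1 h2).1
    linarith

end Vale.Agent.P207.N4.H734

end
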